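import Vale.Agent.Lib.P028T.GcdSum
import Vale.Agent.Lib.P028T.PhiOver
import Vale.Agent.Lib.P028V.Abstract

/-! Theorem E: every shift, no totient weight, divergence of a power above one.
A single dyadic level of `ψ` with `K^(1+2η)` elements is a good block, because the
sum of `1/height` over pairs of a finite set of size `N` is `O(N^(1+η))`. -/

open MeasureTheory Filter Finset

namespace Vale.Agent.Lib.P028E

open Vale.Agent.Lib.P028
open Vale.Agent.Lib.P028T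
open Vale.Agent.Lib.P028T.GcdAux
open Vale.Agent.Lib.P028V (abstract_main)

/-- The weight sum bound, at every exponent. -/
theorem wS_le_general {η : ℝ} (hη : 0 < η) : ∃ C : ℝ, 0 < C ∧ ∀ X : Finset ℕ, (∀ x ∈ X, 1 ≤ x) →
    wS X ≤ C * (X.card : ℝ) ^ (1 + η) := by
  obtain ⟨ε, hε⟩ : ∃ ε : ℝ, ε = min (η / 6) (1 / 4) := ⟨_, rfl⟩
  have hε0 : 0 < ε := by
    rw [hε]
    exact lt_min (by positivity) (by norm_num)
  have hε1 : ε ≤ 1 / 4 := by
    rw [hε]
    exact min_le_right _ _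
  have hε2 : 6 * ε ≤ η := by
    have : ε ≤ η / 6 := by
      rw [hε]
      exact min_le_left _ _
    linarith
  obtain ⟨C, hC, hτ⟩ := tau_le_rpow ε hε0
  have hl2 : 0 < Real.log 2 := Real.log_pos (by norm_num)
  obtain ⟨A, hA⟩ : ∃ A : ℝ, A = C ^ 2 * (2 * (1 + 1 / (ε * Real.log 2)) + 1) := ⟨_, rfl⟩
  have hApos : 0 < A := by rw [hA]; positivity
  refine ⟨A ^ 2, by positivity, ?_⟩
  intro X hX
  by_cases hK : X.card = 0
  · have hXe : X = ∅ := Finset.card_eq_zero.1 hK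
    subst hXe
    simp [wS]
    positivity
  have hK1 : 1 ≤ X.card := by omega
  have hKR : (1 : ℝ) ≤ X.card := by exact_mod_cast hK1
  have hK0 : (0 : ℝ) < X.card := by linarith
  have hself := wS_self ε C hε0 hε1 hC hτ X hX hK1
  rw [← hA] at hself
  have hS0 : 0 ≤ wS X := Finset.sum_nonneg fun _ _ => Finset.sum_nonneg fun _ _ => wt_nonneg _ _
  obtain ⟨R, hR⟩ : ∃ R, R = Real.sqrt ((X.card : ℝ) * wS X) := ⟨_, rfl⟩
  rw [← hR] at hself
  have hR2 : R ^ 2 = (X.card : ℝ) * wS X := by rw [hR]; exact Real.sq_sqrt (by positivity)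
  have hR0 : 0 ≤ R := hR ▸ Real.sqrt_nonneg _
  obtain ⟨B, hB⟩ : ∃ B, B = A * (X.card : ℝ) ^ (3 * ε) := ⟨_, rfl⟩
  rw [← hB] at hself
  have hB0 : 0 ≤ B := by rw [hB]; positivity
  have hS1 : wS X ≤ B ^ 2 * (X.card : ℝ) := by
    by_cases hS : wS X = 0
    · rw [hS]; positivity
    have hSpos : 0 < wS X := lt_of_le_of_ne hS0 (Ne.symm hS)
    have h2 : (wS X) ^ 2 ≤ (B * R) ^ 2 := pow_le_pow_left₀ hS0 hself 2
    rw [mul_pow, hR2] at h2
    have h3 : wS X * wS X ≤ (B ^ 2 * (X.card : ℝ)) * wS X := by nlinarith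
    exact le_of_mul_le_mul_right h3 hSpos
  refine hS1.trans ?_
  rw [hB, mul_pow]
  have h4 : ((X.card : ℝ) ^ (3 * ε)) ^ 2 * (X.card : ℝ) = (X.card : ℝ) ^ (1 + 6 * ε) := by
    rw [← Real.rpow_natCast, ← Real.rpow_mul hK0.le]
    nth_rewrite 2 [← Real.rpow_one (X.card : ℝ)]
    rw [← Real.rpow_add hK0]
    congr 1
    push_cast
    ring
  rw [mul_assoc, h4]
  apply mul_le_mul_of_nonneg_left _ (by positivity)
  exact Real.rpow_le_rpow_of_exponent_le hKR (by linarith)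

/-- The overlap term of two equal values of `φ` is at most `wt / K`. -/
lemma pairTerm_le {γ : ℝ} {φ : ℕ → ℝ} {v : ℝ} (hv : 0 ≤ v) {q r : ℕ} (hq : 1 ≤ q) (hr : 1 ≤ r)
    (hφq : φ q = v) (hφr : φ r = v) : pairTerm γ φ q r ≤ v * wt q r := by
  have hw : 0 ≤ v * wt q r := mul_nonneg hv (wt_nonneg _ _)
  unfold pairTerm
  simp only
  split_ifs with h
  swap
  · exact hw
  rw [hφq, hφr]
  have hb : 1 ≤ lowB q r := lowB_pos hq
  have ha : 1 ≤ lowA q r := lowA_pos hr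
  have hbR : (0:ℝ) < lowB q r := by exact_mod_cast hb
  have haR : (0:ℝ) < lowA q r := by exact_mod_cast ha
  have hht : 1 ≤ ht q r := ht_pos hr
  have hhtR : (0:ℝ) < ht q r := by exact_mod_cast hht
  have hτa : (1:ℝ) ≤ ((lowA q r).divisors.card : ℝ) := by
    have : 1 ≤ (lowA q r).divisors.card := Finset.card_pos.2 ⟨1, Nat.mem_divisors.2 ⟨one_dvd _, by omega⟩⟩
    exact_mod_cast this
  have hτb : (1:ℝ) ≤ ((lowB q r).divisors.card : ℝ) := by
    have : 1 ≤ (lowB q r).divisors.card := Finset.card_pos.2 ⟨1, Nat.mem_divisors.2 ⟨one_dvd _, by omega⟩⟩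
    exact_mod_cast this
  have hwt : 1 / (ht q r : ℝ) ≤ wt q r := by
    unfold wt
    apply div_le_div_of_nonneg_right _ hhtR.le
    nlinarith
  have hmin : min (v / ((q / Nat.gcd q r : ℕ) : ℝ)) (v / ((r / Nat.gcd q r : ℕ) : ℝ)) ≤ v * (1 / (ht q r : ℝ)) := by
    change min (v / (lowB q r : ℝ)) (v / (lowA q r : ℝ)) ≤ _
    rcases le_total (lowA q r) (lowB q r) with hab | hab
    · have hm : ht q r = lowB q r := max_eq_right hab
      rw [hm, mul_one_div]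
      exact min_le_left _ _
    · have hm : ht q r = lowA q r := max_eq_left hab
      rw [hm, mul_one_div]
      exact min_le_right _ _
  exact hmin.trans (mul_le_mul_of_nonneg_left hwt hv)

/-- The numerology of a block. -/
lemma block_num {K N η C : ℝ} (hK : 1 ≤ K) (hη0 : 0 < η) (hη1 : η ≤ 1 / 2) (hC : 0 < C)
    (hN : K ^ (1 + 2 * η) ≤ N) :
    (1 / K) * (C * N ^ (1 + η)) ≤ C * (N / K) ^ 2 := by
  have hK0 : 0 < K := by linarith
  have hK1 : 1 ≤ K ^ (1 + 2 * η) := Real.one_le_rpow hK (by linarith)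
  have hN1 : 1 ≤ N := hK1.trans hN
  have hN0 : 0 < N := by linarith
  have h1 : K ≤ N ^ (1 - η) := by
    have h2 : (K ^ (1 + 2 * η)) ^ (1 - η) ≤ N ^ (1 - η) :=
      Real.rpow_le_rpow (by positivity) hN (by linarith)
    rw [← Real.rpow_mul hK0.le] at h2
    have h3 : K ^ (1:ℝ) ≤ K ^ ((1 + 2 * η) * (1 - η)) := by
      apply Real.rpow_le_rpow_of_exponent_le hK
      nlinarith
    rw [Real.rpow_one] at h3
    linarith
  have h4 : N ^ (1 + η) * N ^ (1 - η) = N ^ 2 := by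
    rw [← Real.rpow_add hN0, ← Real.rpow_natCast]
    congr 1
    push_cast
    ring
  have h5 : N ^ (1 + η) * K ≤ N ^ 2 := by
    rw [← h4]
    exact mul_le_mul_of_nonneg_left h1 (by positivity)
  have h6 : (1 / K) * (C * N ^ (1 + η)) = C * (N ^ (1 + η) * K) / K ^ 2 := by
    field_simp
  rw [h6, div_pow, mul_div_assoc]
  apply mul_le_mul_of_nonneg_left _ hC.le
  exact div_le_div_of_nonneg_right h5 (by positivity)

/-- The choice of a dyadic level with many elements. -/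
lemma level_select {φ : ℕ → ℝ} {ε : ℝ} (hε : 0 < ε) (h0 : ∀ q, 0 ≤ φ q) (h1 : ∀ q, φ q ≤ 1)
    (hd : ∀ q, φ q ≠ 0 → ∃ n : ℕ, φ q = ((1:ℝ) / 2) ^ n)
    (hdiv : ¬ Summable fun q => φ q ^ (1 + ε)) (Y : ℕ) :
    ∃ (n : ℕ) (F : Finset ℕ), (∀ q ∈ F, Y ≤ q ∧ φ q = ((1:ℝ) / 2) ^ n) ∧
      ((2:ℝ) ^ (n:ℝ)) ^ (1 + ε / 2) ≤ (F.card : ℝ) := by
  classical
  by_contra hcon
  push Not at hcon
  apply hdiv
  have hε1 : (0:ℝ) < 1 + ε := by linarith
  -- the geometric series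
  set ρ : ℝ := (2:ℝ) ^ (-(ε / 2)) with hρ
  have hρ0 : 0 < ρ := by positivity
  have hρ1 : ρ < 1 := Real.rpow_lt_one_of_one_lt_of_neg (by norm_num) (by linarith)
  have hgeo : Summable fun n : ℕ => ρ ^ n := summable_geometric_of_lt_one hρ0.le hρ1
  have hpow0 : ∀ q, 0 ≤ φ q ^ (1 + ε) := fun q => Real.rpow_nonneg (h0 q) _
  have hpow1 : ∀ q, φ q ^ (1 + ε) ≤ 1 := fun q =>
    Real.rpow_le_one (h0 q) (h1 q) hε1.le
  -- the level function
  have hlev : ∀ q, ∃ n : ℕ, φ q ≠ 0 → φ q = ((1:ℝ) / 2) ^ n := by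
    intro q
    by_cases h : φ q = 0
    · exact ⟨0, fun h' => absurd h h'⟩
    · obtain ⟨n, hn⟩ := hd q h
      exact ⟨n, fun _ => hn⟩
  choose lev hlev using hlev
  refine summable_of_sum_le (c := (Y:ℝ) + ∑' n : ℕ, ρ ^ n) hpow0 fun T => ?_
  -- the low part
  have hlow : ∑ q ∈ T.filter (· < Y), φ q ^ (1 + ε) ≤ Y := by
    calc ∑ q ∈ T.filter (· < Y), φ q ^ (1 + ε) ≤ ∑ _q ∈ T.filter (· < Y), (1:ℝ) :=
          Finset.sum_le_sum fun q _ => hpow1 q
      _ = ((T.filter (· < Y)).card : ℝ) := by simp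
      _ ≤ Y := by
          have : (T.filter (· < Y)) ⊆ Finset.range Y := by
            intro q hq
            exact Finset.mem_range.2 (Finset.mem_filter.1 hq).2
          have h2 := Finset.card_le_card this
          rw [Finset.card_range] at h2
          exact_mod_cast h2
  -- the high part
  set T₂ := T.filter (fun q => ¬ q < Y ∧ φ q ≠ 0) with hT₂
  have hfib : ∀ n ∈ T₂.image lev, ∑ q ∈ T₂.filter (fun q => lev q = n), φ q ^ (1 + ε) ≤ ρ ^ n := by
    intro n _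
    have hmem : ∀ q ∈ T₂.filter (fun q => lev q = n), Y ≤ q ∧ φ q = ((1:ℝ) / 2) ^ n := by
      intro q hq
      obtain ⟨hq1, hq2⟩ := Finset.mem_filter.1 hq
      obtain ⟨-, hq3, hq4⟩ := Finset.mem_filter.1 hq1
      refine ⟨not_lt.1 hq3, ?_⟩
      rw [hlev q hq4, hq2]
    have hcard := hcon n _ hmem
    have hval : ∀ q ∈ T₂.filter (fun q => lev q = n),
        φ q ^ (1 + ε) = (((1:ℝ) / 2) ^ n) ^ (1 + ε) := fun q hq => by rw [(hmem q hq).2]
    rw [Finset.sum_congr rfl hval, Finset.sum_const, nsmul_eq_mul]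
    have hK : (0:ℝ) < (2:ℝ) ^ (n:ℝ) := by positivity
    have hhalf : ((1:ℝ) / 2) ^ n = ((2:ℝ) ^ (n:ℝ))⁻¹ := by
      rw [Real.rpow_natCast]
      simp [one_div, inv_pow]
    rw [hhalf, Real.inv_rpow hK.le]
    have hρn : ρ ^ n = ((2:ℝ) ^ (n:ℝ)) ^ (1 + ε / 2) * (((2:ℝ) ^ (n:ℝ)) ^ (1 + ε))⁻¹ := by
      rw [← Real.rpow_neg hK.le, ← Real.rpow_add hK, hρ, ← Real.rpow_natCast, ← Real.rpow_mul (by norm_num),
        ← Real.rpow_mul (by norm_num)]
      congr 1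
      ring
    rw [hρn]
    apply mul_le_mul_of_nonneg_right hcard.le (by positivity)
  have hhigh : ∑ q ∈ T₂, φ q ^ (1 + ε) ≤ ∑' n : ℕ, ρ ^ n := by
    have hmaps : ∀ q ∈ T₂, lev q ∈ T₂.image lev := fun q hq => Finset.mem_image_of_mem _ hq
    rw [← Finset.sum_fiberwise_of_maps_to hmaps]
    refine (Finset.sum_le_sum hfib).trans ?_
    exact hgeo.sum_le_tsum _ (fun n _ => by positivity)
  -- assemble
  have hsplit : ∑ q ∈ T, φ q ^ (1 + ε) ≤ ∑ q ∈ T.filter (· < Y), φ q ^ (1 + ε) + ∑ q ∈ T₂, φ q ^ (1 + ε) := by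
    rw [← Finset.sum_filter_add_sum_filter_not T (· < Y)]
    apply add_le_add le_rfl
    apply le_of_eq
    rw [hT₂, Finset.sum_filter, Finset.sum_filter]
    apply Finset.sum_congr rfl
    intro q _
    by_cases h2 : q < Y
    · simp [h2]
    · by_cases h3 : φ q = 0
      · simp [h2, h3, Real.zero_rpow hε1.ne']
      · simp [h2, h3]
  linarith

/-- Theorem E for a dyadic function. -/
theorem main_dyadic (γ : ℝ) {ε : ℝ} (hε : 0 < ε) (φ : ℕ → ℝ) (h0 : ∀ q, 0 ≤ φ q) (h1 : ∀ q, φ q ≤ 1 / 2)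
    (hd : ∀ q, φ q ≠ 0 → ∃ n : ℕ, φ q = ((1:ℝ) / 2) ^ n)
    (hdiv : ¬ Summable fun q => φ q ^ (1 + ε)) :
    ∀ᵐ x : ℝ, ∃ᶠ q : ℕ in atTop, dn ((q:ℝ) * x - γ) < φ q := by
  classical
  obtain ⟨η, hη⟩ : ∃ η : ℝ, η = min (ε / 4) (1 / 2) := ⟨_, rfl⟩
  have hη0 : 0 < η := by
    rw [hη]
    exact lt_min (by positivity) (by norm_num)
  have hη1 : η ≤ 1 / 2 := by
    rw [hη]
    exact min_le_right _ _
  have hη2 : 2 * η ≤ ε / 2 := by
    have : η ≤ ε / 4 := by
      rw [hη]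
      exact min_le_left _ _
    linarith
  obtain ⟨C, hC, hgal⟩ := wS_le_general hη0
  have hblocks : ∃ C₁ : ℝ, 0 < C₁ ∧ ∀ Y : ℕ, ∃ F : Finset ℕ, (∀ r ∈ F, Y ≤ r) ∧
      1 ≤ ∑ r ∈ F, ∫ x in (0:ℝ)..1, Phi γ φ r x ∧
      ∑ r ∈ F, ∑ q ∈ F.filter (· < r), ∫ x in (0:ℝ)..1, Phi γ φ q x * Phi γ φ r x
        ≤ C₁ * (∑ r ∈ F, ∫ x in (0:ℝ)..1, Phi γ φ r x) ^ 2 := by
    refine ⟨772 + C, by linarith, fun Y => ?_⟩
    obtain ⟨n, F, hF, hcard⟩ := level_select hε h0 (fun q => (h1 q).trans (by norm_num)) hd hdiv (max Y 2)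
    have hqY : ∀ q ∈ F, Y ≤ q := fun q hq => (le_max_left _ _).trans (hF q hq).1
    have hq2 : ∀ q ∈ F, 2 ≤ q := fun q hq => (le_max_right _ _).trans (hF q hq).1
    obtain ⟨K, hKd⟩ : ∃ K : ℝ, K = (2:ℝ) ^ (n:ℝ) := ⟨_, rfl⟩
    rw [← hKd] at hcard
    have hK1 : 1 ≤ K := by
      rw [hKd]
      exact Real.one_le_rpow (by norm_num) (by positivity)
    have hK0 : 0 < K := by linarith
    have hv : ((1:ℝ) / 2) ^ n = 1 / K := by
      rw [hKd, Real.rpow_natCast]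
      simp [one_div, inv_pow]
    have hφF : ∀ q ∈ F, φ q = 1 / K := fun q hq => by rw [(hF q hq).2, hv]
    have hint : ∑ r ∈ F, ∫ x in (0:ℝ)..1, Phi γ φ r x = (F.card : ℝ) / K := by
      rw [Finset.sum_congr rfl fun r hr => integral_phi h0 h1 (hq2 r hr),
        Finset.sum_congr rfl hφF, Finset.sum_const, nsmul_eq_mul]
      ring
    have hN : K ^ (1 + 2 * η) ≤ (F.card : ℝ) := by
      refine le_trans ?_ hcard
      exact Real.rpow_le_rpow_of_exponent_le hK1 (by linarith)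
    have hM : 1 ≤ (F.card : ℝ) / K := by
      rw [le_div_iff₀ hK0, one_mul]
      have : K ^ (1:ℝ) ≤ K ^ (1 + 2 * η) := Real.rpow_le_rpow_of_exponent_le hK1 (by linarith)
      rw [Real.rpow_one] at this
      linarith
    refine ⟨F, hqY, ?_, ?_⟩
    · rw [hint]
      exact hM
    · rw [hint]
      -- termwise
      have hterm : ∀ r ∈ F, ∀ q ∈ F.filter (· < r), ∫ x in (0:ℝ)..1, Phi γ φ q x * Phi γ φ r x
          ≤ 772 * ((1 / K) * (1 / K)) + (1 / K) * wt q r := by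
        intro r hr q hq
        have hqF : q ∈ F := (Finset.mem_filter.1 hq).1
        have h2 := overlap_le (γ := γ) h0 h1 (hq2 q hqF) (hq2 r hr)
        rw [hφF q hqF, hφF r hr] at h2
        have h3 := pairTerm_le (γ := γ) (φ := φ) (v := 1 / K) (by positivity)
          (q := q) (r := r) (by have := hq2 q hqF; omega)
          (by have := hq2 r hr; omega) (hφF q hqF) (hφF r hr)
        linarith
      have hsum : ∑ r ∈ F, ∑ q ∈ F.filter (· < r), ∫ x in (0:ℝ)..1, Phi γ φ q x * Phi γ φ r x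
          ≤ ∑ r ∈ F, ∑ q ∈ F, (772 * ((1 / K) * (1 / K)) + (1 / K) * wt q r) := by
        refine Finset.sum_le_sum fun r hr => ?_
        refine (Finset.sum_le_sum (hterm r hr)).trans ?_
        apply Finset.sum_le_sum_of_subset_of_nonneg (Finset.filter_subset _ _)
        intro q _ _
        have := wt_nonneg q r
        positivity
      have hval : ∑ r ∈ F, ∑ q ∈ F, (772 * ((1 / K) * (1 / K)) + (1 / K) * wt q r)
          = 772 * ((F.card : ℝ) / K) ^ 2 + (1 / K) * wS F := by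
        simp only [Finset.sum_add_distrib, Finset.sum_const, nsmul_eq_mul, ← Finset.mul_sum]
        unfold wS
        rw [Finset.sum_comm]
        field_simp
      have hg := hgal F (fun q hq => by have := hq2 q hq; omega)
      have hnum := block_num (C := C) hK1 hη0 hη1 hC hN
      have hg2 : (1 / K) * wS F ≤ (1 / K) * (C * (F.card : ℝ) ^ (1 + η)) :=
        mul_le_mul_of_nonneg_left hg (by positivity)
      rw [hval] at hsum
      nlinarith
  have h := abstract_main (Phi γ φ) phi_lip (fun r x => phi_nonneg r x)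
    (fun r hr x => phi_le_one h1 hr x) (fun r x => phi_periodic r x)
    (fun L ε hL hε => phi_mix h0 h1 L ε hL hε) hblocks
  filter_upwards [h] with x hx
  apply (hx.and_eventually (eventually_ge_atTop 1)).mono
  intro q hq
  exact phi_pos_imp hq.2 hq.1

/-- Dyadic rounding from below. -/
private lemma exists_dyadic {t : ℝ} (h0 : 0 < t) (h1 : t ≤ 1) :
    ∃ n : ℕ, ((1:ℝ) / 2) ^ n < t ∧ t ≤ 2 * ((1:ℝ) / 2) ^ n := by
  obtain ⟨n, hn1, hn2⟩ := exists_nat_pow_near_of_lt_one h0 h1 (by norm_num : (0:ℝ) < 1 / 2)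
    (by norm_num : (1:ℝ) / 2 < 1)
  refine ⟨n + 1, hn1, ?_⟩
  rw [pow_succ]
  linarith

/-- Theorem E: every shift, an excess power of `ψ`. -/
theorem main_E (γ : ℝ) {ε : ℝ} (hε : 0 < ε) (ψ : ℕ → ℝ) (hψ : ∀ q, 0 ≤ ψ q)
    (hdiv : ¬ Summable fun q : ℕ => (min (ψ q) 1) ^ (1 + ε)) :
    ∀ᵐ x : ℝ, ∃ᶠ q : ℕ in atTop, dn ((q:ℝ) * x - γ) < ψ q := by
  classical
  have hε1 : (0:ℝ) < 1 + ε := by linarith
  set m : ℕ → ℝ := fun q => min (ψ q) (1 / 2) with hm
  have hm0 : ∀ q, 0 ≤ m q := fun q => le_min (hψ q) (by norm_num)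
  have hm1 : ∀ q, m q ≤ 1 / 2 := fun q => min_le_right _ _
  have hex : ∀ q, ∃ x : ℝ, (m q = 0 → x = 0) ∧
      (0 < m q → (∃ n : ℕ, x = ((1:ℝ) / 2) ^ n) ∧ x < m q ∧ m q ≤ 2 * x) := by
    intro q
    by_cases h : 0 < m q
    · obtain ⟨n, h1, h2⟩ := exists_dyadic h ((hm1 q).trans (by norm_num))
      exact ⟨((1:ℝ) / 2) ^ n, fun h' => absurd h' h.ne', fun _ => ⟨⟨n, rfl⟩, h1, h2⟩⟩
    · exact ⟨0, fun _ => rfl, fun h' => absurd h' h⟩
  choose φ hφ0 hφ1 using hex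
  have hφnn : ∀ q, 0 ≤ φ q := by
    intro q
    rcases (hm0 q).eq_or_lt with h | h
    · rw [hφ0 q h.symm]
    · obtain ⟨⟨n, hn⟩, _, _⟩ := hφ1 q h
      rw [hn]
      positivity
  have hφle : ∀ q, φ q ≤ m q := by
    intro q
    rcases (hm0 q).eq_or_lt with h | h
    · rw [hφ0 q h.symm]
      exact h.le
    · exact (hφ1 q h).2.1.le
  have hmle : ∀ q, m q ≤ 2 * φ q := by
    intro q
    rcases (hm0 q).eq_or_lt with h | h
    · rw [hφ0 q h.symm, ← h]
      norm_num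
    · exact (hφ1 q h).2.2
  have hφd : ∀ q, φ q ≠ 0 → ∃ n : ℕ, φ q = ((1:ℝ) / 2) ^ n := by
    intro q hq
    rcases (hm0 q).eq_or_lt with h | h
    · exact absurd (hφ0 q h.symm) hq
    · exact (hφ1 q h).1
  have hφψ : ∀ q, φ q ≤ ψ q := fun q => (hφle q).trans (min_le_left _ _)
  have hφdiv : ¬ Summable fun q => φ q ^ (1 + ε) := by
    intro hs
    apply hdiv
    refine Summable.of_nonneg_of_le (fun q => Real.rpow_nonneg (le_min (hψ q) (by norm_num)) _)
      (fun q => ?_) (hs.mul_left ((4:ℝ) ^ (1 + ε)))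
    rw [← Real.mul_rpow (by norm_num) (hφnn q)]
    apply Real.rpow_le_rpow (le_min (hψ q) (by norm_num)) _ hε1.le
    have h2 := hmle q
    by_cases h3 : ψ q ≤ 1 / 2
    · have h4 : m q = ψ q := min_eq_left h3
      have h5 : min (ψ q) 1 ≤ ψ q := min_le_left _ _
      linarith [hφnn q]
    · push Not at h3
      have h4 : m q = 1 / 2 := min_eq_right h3.le
      have h5 : min (ψ q) 1 ≤ 1 := min_le_right _ _
      linarith
  have h := main_dyadic γ hε φ hφnn (fun q => (hφle q).trans (hm1 q)) hφd hφdiv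
  filter_upwards [h] with x hx
  exact hx.mono fun q hq => lt_of_lt_of_le hq (hφψ q)

end Vale.Agent.Lib.P028E
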